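import Mathlib

namespace Vale.Agent.Lib.P252

/-- The matrix of second partial derivatives `∂_i ∂_j F (x)` of `F : ℝⁿ → ℝ`. -/
noncomputable def hessian {n : ℕ} (F : (Fin n → ℝ) → ℝ) (x : Fin n → ℝ) :
    Matrix (Fin n) (Fin n) ℝ :=
  Matrix.of fun i j => fderiv ℝ (fun y => fderiv ℝ F y (Pi.single j 1)) x (Pi.single i 1)

/-- `u` solves `∑ U^{ij} ∂_{ij} w = 0` on all of `ℝⁿ`, where `U^{ij} = det(D²u) (D²u)⁻¹_{ij}` and
`w = (det D²u)^a`. The affine maximal equation is the case `a = -(n+1)/(n+2)`. -/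
def SolvesAM {n : ℕ} (a : ℝ) (u : (Fin n → ℝ) → ℝ) : Prop :=
  ∀ x, ∑ i, ∑ j, ((hessian u x).det * (hessian u x)⁻¹ i j) *
    hessian (fun y => (hessian u y).det ^ a) x i j = 0

end Vale.Agent.Lib.P252
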