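import Vale.Agent.Lib.P252.Defs

namespace Vale.Agent.Lib.P252

open scoped ContDiff

variable {n : ℕ}

lemma hasFDerivAt_comp_proj (g : ℝ → ℝ) (j : Fin n) (x : Fin n → ℝ)
    (hg : DifferentiableAt ℝ g (x j)) :
    HasFDerivAt (fun y : Fin n → ℝ => g (y j))
      (deriv g (x j) • (ContinuousLinearMap.proj j : (Fin n → ℝ) →L[ℝ] ℝ)) x :=
  hg.hasDerivAt.comp_hasFDerivAt x (hasFDerivAt_apply j x)

lemma fderiv_comp_proj (g : ℝ → ℝ) (j i : Fin n) (x : Fin n → ℝ)
    (hg : DifferentiableAt ℝ g (x j)) :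
    fderiv ℝ (fun y : Fin n → ℝ => g (y j)) x (Pi.single i 1)
      = if i = j then deriv g (x j) else 0 := by
  rw [(hasFDerivAt_comp_proj g j x hg).fderiv]
  by_cases h : i = j
  · subst h; simp
  · simp [h, Ne.symm h]

lemma fderiv_sum_proj (f : Fin n → ℝ → ℝ) (hf : ∀ k, Differentiable ℝ (f k)) (i : Fin n)
    (x : Fin n → ℝ) :
    fderiv ℝ (fun y : Fin n → ℝ => ∑ k, f k (y k)) x (Pi.single i 1) = deriv (f i) (x i) := by
  have h : HasFDerivAt (fun y : Fin n → ℝ => ∑ k, f k (y k))
      (∑ k, deriv (f k) (x k) • (ContinuousLinearMap.proj k : (Fin n → ℝ) →L[ℝ] ℝ)) x :=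
    HasFDerivAt.fun_sum (fun k _ => hasFDerivAt_comp_proj (f k) k x (hf k _))
  rw [h.fderiv]
  simp [Pi.single_apply]

lemma hasFDerivAt_prod_proj (φ : Fin n → ℝ → ℝ) (hφ : ∀ k, Differentiable ℝ (φ k))
    (s : Finset (Fin n)) (x : Fin n → ℝ) :
    HasFDerivAt (fun y : Fin n → ℝ => ∏ k ∈ s, φ k (y k))
      (∑ k ∈ s, (∏ j ∈ s.erase k, φ j (x j)) •
        (deriv (φ k) (x k) • (ContinuousLinearMap.proj k : (Fin n → ℝ) →L[ℝ] ℝ))) x :=
  HasFDerivAt.finsetProd (fun k _ => hasFDerivAt_comp_proj (φ k) k x (hφ k _))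

lemma fderiv_prod_proj (φ : Fin n → ℝ → ℝ) (hφ : ∀ k, Differentiable ℝ (φ k))
    (s : Finset (Fin n)) (i : Fin n) (x : Fin n → ℝ) :
    fderiv ℝ (fun y : Fin n → ℝ => ∏ k ∈ s, φ k (y k)) x (Pi.single i 1)
      = if i ∈ s then deriv (φ i) (x i) * ∏ k ∈ s.erase i, φ k (x k) else 0 := by
  rw [(hasFDerivAt_prod_proj φ hφ s x).fderiv]
  simp only [sum_apply, smul_apply,
    ContinuousLinearMap.proj_apply, Pi.single_apply, smul_eq_mul]
  split_ifs with h
  · rw [Finset.sum_eq_single i]
    · simp [mul_comm]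
    · intro b _ hb; simp [hb]
    · intro hi; exact absurd h hi
  · refine Finset.sum_eq_zero ?_
    intro b hb
    have : b ≠ i := fun e => h (e ▸ hb)
    simp [this]

/-- Hessian of an additively separable function. -/
lemma hessian_sum (f : Fin n → ℝ → ℝ) (hf : ∀ k, Differentiable ℝ (f k))
    (hf' : ∀ k, Differentiable ℝ (deriv (f k))) (x : Fin n → ℝ) :
    hessian (fun y => ∑ k, f k (y k)) x = Matrix.diagonal (fun k => deriv (deriv (f k)) (x k)) := by
  ext i j
  simp only [hessian, Matrix.of_apply]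
  have h1 : (fun y : Fin n → ℝ => fderiv ℝ (fun y => ∑ k, f k (y k)) y (Pi.single j 1))
      = fun y => deriv (f j) (y j) := by
    funext y; exact fderiv_sum_proj f hf j y
  rw [h1, fderiv_comp_proj _ _ _ _ (hf' j _)]
  by_cases h : i = j
  · subst h; simp
  · simp [h, Matrix.diagonal_apply_ne _ h]

/-- Diagonal entries of the Hessian of a multiplicatively separable function. -/
lemma hessian_prod_diag (φ : Fin n → ℝ → ℝ) (hφ : ∀ k, Differentiable ℝ (φ k))
    (hφ' : ∀ k, Differentiable ℝ (deriv (φ k))) (x : Fin n → ℝ) (i : Fin n) :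
    hessian (fun y => ∏ k, φ k (y k)) x i i
      = deriv (deriv (φ i)) (x i) * ∏ k ∈ Finset.univ.erase i, φ k (x k) := by
  simp only [hessian, Matrix.of_apply]
  have h1 : (fun y : Fin n → ℝ => fderiv ℝ (fun y => ∏ k, φ k (y k)) y (Pi.single i 1))
      = fun y => deriv (φ i) (y i) * ∏ k ∈ Finset.univ.erase i, φ k (y k) := by
    funext y
    rw [fderiv_prod_proj φ hφ Finset.univ i y, if_pos (Finset.mem_univ i)]
  rw [h1]
  have hA := hasFDerivAt_comp_proj (deriv (φ i)) i x (hφ' i _)
  have hB := hasFDerivAt_prod_proj φ hφ (Finset.univ.erase i) x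
  have hAB := hA.mul hB
  have e2 := fderiv_prod_proj φ hφ (Finset.univ.erase i) i x
  rw [hB.fderiv, if_neg (Finset.notMem_erase i _)] at e2
  have : (fun y : Fin n → ℝ => deriv (φ i) (y i) * ∏ k ∈ Finset.univ.erase i, φ k (y k))
      = (fun y : Fin n → ℝ => deriv (φ i) (y i)) * fun y => ∏ k ∈ Finset.univ.erase i, φ k (y k) :=
    rfl
  rw [this, hAB.fderiv]
  simp only [add_apply, smul_apply, smul_eq_mul, e2, mul_zero, zero_add,
    ContinuousLinearMap.proj_apply, Pi.single_eq_same, mul_one]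
  ring

/-- A positive function on the whole line with nonpositive second derivative has zero derivative. -/
lemma deriv_eq_zero_of_pos_of_deriv2_nonpos (φ : ℝ → ℝ) (h1 : Differentiable ℝ φ)
    (h2 : Differentiable ℝ (deriv φ)) (hpos : ∀ t, 0 < φ t)
    (hcc : ∀ t, deriv (deriv φ) t ≤ 0) : ∀ t, deriv φ t = 0 := by
  have hA : Antitone (deriv φ) := antitone_of_deriv_nonpos h2 hcc
  intro t0
  by_contra hne
  rcases lt_or_gt_of_ne hne with hs | hs
  · -- negative slope
    set s := deriv φ t0 with hsdef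
    set t := t0 + φ t0 / (-s) + 1 with ht
    have hq : 0 < φ t0 / (-s) := div_pos (hpos t0) (by linarith)
    have hlt : t0 < t := by rw [ht]; linarith
    obtain ⟨c, hc, hce⟩ := exists_deriv_eq_slope φ hlt h1.continuous.continuousOn
      h1.differentiableOn
    have hcs : deriv φ c ≤ s := hA hc.1.le
    have hpos' : 0 < t - t0 := by linarith
    rw [hce, div_le_iff₀ hpos'] at hcs
    have e : s * (t - t0) = -φ t0 + s := by
      rw [ht]; field_simp; ring
    have := hpos t
    linarith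
  · set s := deriv φ t0 with hsdef
    set t := t0 - φ t0 / s - 1 with ht
    have hq : 0 < φ t0 / s := div_pos (hpos t0) hs
    have hlt : t < t0 := by rw [ht]; linarith
    obtain ⟨c, hc, hce⟩ := exists_deriv_eq_slope φ hlt h1.continuous.continuousOn
      h1.differentiableOn
    have hcs : s ≤ deriv φ c := hA hc.2.le
    have hpos' : 0 < t0 - t := by linarith
    rw [hce, le_div_iff₀ hpos'] at hcs
    have e : s * (t0 - t) = φ t0 + s := by
      rw [ht]; field_simp; ring
    have := hpos t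
    linarith

/-- A function with constant second derivative is a quadratic polynomial. -/
lemma eq_quadratic_of_deriv2_const (f : ℝ → ℝ) (h1 : Differentiable ℝ f)
    (h2 : Differentiable ℝ (deriv f)) (a : ℝ) (ha : ∀ t, deriv (deriv f) t = a) (t : ℝ) :
    f t = a * t ^ 2 / 2 + deriv f 0 * t + f 0 := by
  have hd1 : ∀ t, deriv f t = a * t + deriv f 0 := by
    intro t
    have hdiff : Differentiable ℝ (fun t => deriv f t - a * t) := h2.sub (by fun_prop)
    have hz : ∀ t, deriv (fun t => deriv f t - a * t) t = 0 := by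
      intro t
      have : HasDerivAt (fun t => deriv f t - a * t) (deriv (deriv f) t - a * 1) t :=
        (h2 t).hasDerivAt.sub ((hasDerivAt_id t).const_mul a)
      rw [this.deriv, ha]; ring
    have := is_const_of_deriv_eq_zero hdiff hz t 0
    linarith
  have hdiff : Differentiable ℝ (fun t => f t - (a * t ^ 2 / 2 + deriv f 0 * t)) :=
    h1.sub (by fun_prop)
  have hz : ∀ t, deriv (fun t => f t - (a * t ^ 2 / 2 + deriv f 0 * t)) t = 0 := by
    intro t
    have h3 : HasDerivAt (fun t : ℝ => a * t ^ 2 / 2 + deriv f 0 * t)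
        (a * (2 * t) / 2 + deriv f 0 * 1) t := by
      have h4 := ((hasDerivAt_pow 2 t).const_mul a).div_const 2
      have h5 := h4.fun_add ((hasDerivAt_id t).const_mul (deriv f 0))
      simpa using h5
    have : HasDerivAt (fun t => f t - (a * t ^ 2 / 2 + deriv f 0 * t))
        (deriv f t - (a * (2 * t) / 2 + deriv f 0 * 1)) t := (h1 t).hasDerivAt.sub h3
    rw [this.deriv, hd1]; ring
  have := is_const_of_deriv_eq_zero hdiff hz t 0
  simp only [ne_eq, OfNat.ofNat_ne_zero, not_false_eq_true, zero_pow, mul_zero, zero_div,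
    add_zero, sub_zero] at this
  linarith

lemma inv_diagonal_of_pos (d : Fin n → ℝ) (hd : ∀ i, 0 < d i) :
    (Matrix.diagonal d)⁻¹ = Matrix.diagonal (fun i => (d i)⁻¹) := by
  apply Matrix.inv_eq_right_inv
  rw [Matrix.diagonal_mul_diagonal]
  have : (fun i => d i * (d i)⁻¹) = fun _ => (1 : ℝ) := by
    funext i; exact mul_inv_cancel₀ (hd i).ne'
  rw [this, Matrix.diagonal_one]

theorem separable_core (a : ℝ) (ha : a ≠ 0) (f : Fin n → ℝ → ℝ)
    (hf : ∀ k, ContDiff ℝ ∞ (f k))
    (hpos : ∀ x, (hessian (fun y : Fin n → ℝ => ∑ k, f k (y k)) x).PosDef)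
    (hAM : SolvesAM a (fun y : Fin n → ℝ => ∑ k, f k (y k))) :
    ∀ k t, deriv (deriv (f k)) t = deriv (deriv (f k)) 0 := by
  classical
  have hf1 : ∀ k, Differentiable ℝ (f k) := fun k => (hf k).differentiable (by simp)
  have hfd : ∀ k, ContDiff ℝ ∞ (deriv (f k)) := fun k => (hf k).iterate_deriv 1
  have hf2 : ∀ k, Differentiable ℝ (deriv (f k)) := fun k => (hfd k).differentiable (by simp)
  set g : Fin n → ℝ → ℝ := fun k => deriv (deriv (f k)) with hg
  have hgc : ∀ k, ContDiff ℝ ∞ (g k) := fun k => (hf k).iterate_deriv 2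
  have hH : ∀ x, hessian (fun y : Fin n → ℝ => ∑ k, f k (y k)) x
      = Matrix.diagonal (fun k => g k (x k)) := fun x => hessian_sum f hf1 hf2 x
  have hgpos : ∀ k t, 0 < g k t := by
    intro k t
    have := hpos (fun _ => t)
    rw [hH] at this
    exact Matrix.posDef_diagonal_iff.1 this k
  set φ : Fin n → ℝ → ℝ := fun k t => (g k t) ^ a with hφ
  have hφc : ∀ k, ContDiff ℝ ∞ (φ k) := fun k =>
    (hgc k).rpow_const_of_ne (fun t => (hgpos k t).ne')
  have hφ1 : ∀ k, Differentiable ℝ (φ k) := fun k => (hφc k).differentiable (by simp)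
  have hφ2 : ∀ k, Differentiable ℝ (deriv (φ k)) := fun k =>
    ((hφc k).iterate_deriv 1).differentiable (by simp)
  have hφpos : ∀ k t, 0 < φ k t := fun k t => Real.rpow_pos_of_pos (hgpos k t) a
  have hw : (fun y : Fin n → ℝ => (hessian (fun y : Fin n → ℝ => ∑ k, f k (y k)) y).det ^ a)
      = fun y => ∏ k, φ k (y k) := by
    funext y
    rw [hH, Matrix.det_diagonal, ← Real.finsetProd_rpow _ _ (fun k _ => (hgpos k _).le)]
  set T : Fin n → ℝ → ℝ := fun k t => deriv (deriv (φ k)) t / (g k t * φ k t) with hT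
  -- the equation in separated form
  have hsep : ∀ x : Fin n → ℝ, ∑ i, T i (x i) = 0 := by
    intro x
    have h := hAM x
    rw [hw] at h
    simp only [hH, inv_diagonal_of_pos _ (fun i => hgpos i (x i)), Matrix.det_diagonal] at h
    have h' : ∑ i, (∏ k, g k (x k)) * (∏ k, φ k (x k)) * T i (x i) = 0 := by
      rw [← h]
      refine Finset.sum_congr rfl (fun i _ => ?_)
      rw [Finset.sum_eq_single i]
      · rw [Matrix.diagonal_apply_eq, hessian_prod_diag φ hφ1 hφ2 x i,
          ← Finset.mul_prod_erase Finset.univ (fun k => φ k (x k)) (Finset.mem_univ i)]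
        simp only [hT]
        have h1 := (hgpos i (x i)).ne'
        have h2 := (hφpos i (x i)).ne'
        field_simp
      · intro j _ hj
        rw [Matrix.diagonal_apply_ne _ (Ne.symm hj)]
        simp
      · intro hi; exact absurd (Finset.mem_univ i) hi
    rw [← Finset.mul_sum] at h'
    have hD : 0 < (∏ k, g k (x k)) * (∏ k, φ k (x k)) :=
      mul_pos (Finset.prod_pos (fun k _ => hgpos k _)) (Finset.prod_pos (fun k _ => hφpos k _))
    exact (mul_eq_zero.1 h').resolve_left hD.ne'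
  -- each T i is constant
  have hTc : ∀ i t, T i t = T i 0 := by
    intro i t
    have h1 := hsep (Function.update (fun _ => 0) i t)
    have h2 := hsep (fun _ => 0)
    rw [← Finset.add_sum_erase Finset.univ _ (Finset.mem_univ i)] at h1 h2
    have h3 : ∑ k ∈ Finset.univ.erase i, T k (Function.update (fun _ => (0 : ℝ)) i t k)
        = ∑ k ∈ Finset.univ.erase i, T k 0 := by
      refine Finset.sum_congr rfl (fun k hk => ?_)
      rw [Function.update_of_ne (Finset.ne_of_mem_erase hk)]
    rw [h3, Function.update_self] at h1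
    linarith
  have hsum0 : ∑ i, T i 0 = 0 := hsep (fun _ => 0)
  have hφ'' : ∀ i t, deriv (deriv (φ i)) t = T i 0 * (g i t * φ i t) := by
    intro i t
    rw [← hTc i t]
    simp only [hT]
    have h1 := (hgpos i t).ne'
    have h2 := (hφpos i t).ne'
    field_simp
  have hkey : ∀ i, T i 0 ≤ 0 → ∀ t, deriv (φ i) t = 0 := by
    intro i hi
    refine deriv_eq_zero_of_pos_of_deriv2_nonpos (φ i) (hφ1 i) (hφ2 i) (hφpos i) ?_
    intro t
    rw [hφ'' i t]
    exact mul_nonpos_of_nonpos_of_nonneg hi (mul_pos (hgpos i t) (hφpos i t)).le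
  have hnonneg : ∀ i, 0 ≤ T i 0 := by
    intro i
    by_contra hneg
    push Not at hneg
    have h0 := hkey i hneg.le
    have h1 : deriv (φ i) = fun _ => 0 := funext h0
    have h2 : deriv (deriv (φ i)) 0 = 0 := by rw [h1]; simp
    have h3 : T i 0 = 0 := by simp only [hT]; rw [h2]; simp
    linarith
  have hzero : ∀ i, T i 0 = 0 := by
    intro i
    exact (Finset.sum_eq_zero_iff_of_nonneg (fun i _ => hnonneg i)).1 hsum0 i (Finset.mem_univ i)
  intro k t
  have hconst := is_const_of_deriv_eq_zero (hφ1 k) (hkey k (hzero k).le) t 0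
  exact (Real.rpow_left_inj (hgpos k t).le (hgpos k 0).le ha).1 hconst


theorem separable_quadratic (a : ℝ) (ha : a ≠ 0) (u : (Fin n → ℝ) → ℝ) (hu : ContDiff ℝ ∞ u)
    (hpos : ∀ x, (hessian u x).PosDef) (hAM : SolvesAM a u)
    (hsep : ∃ f : Fin n → ℝ → ℝ, ∀ x, u x = ∑ i, f i (x i)) :
    ∃ (A : Matrix (Fin n) (Fin n) ℝ) (b : Fin n → ℝ) (c : ℝ), A.PosDef ∧
      ∀ x, u x = (1 / 2) * (x ⬝ᵥ A.mulVec x) + b ⬝ᵥ x + c := by
  classical
  obtain ⟨f, hf⟩ := hsep
  have hu' : u = fun y : Fin n → ℝ => ∑ k, f k (y k) := funext hf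
  have hfc : ∀ k, ContDiff ℝ ∞ (f k) := by
    intro k
    have h1 : f k = fun t => u (Pi.single k t) - ∑ j ∈ Finset.univ.erase k, f j 0 := by
      funext t
      rw [hf, ← Finset.add_sum_erase Finset.univ _ (Finset.mem_univ k)]
      have : ∑ j ∈ Finset.univ.erase k, f j ((Pi.single k t : Fin n → ℝ) j)
          = ∑ j ∈ Finset.univ.erase k, f j 0 := by
        refine Finset.sum_congr rfl (fun j hj => ?_)
        rw [Pi.single_eq_of_ne (Finset.ne_of_mem_erase hj)]
      rw [this, Pi.single_eq_same]; ring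
    rw [h1]
    have h2 : ContDiff ℝ ∞ (fun t : ℝ => (Pi.single k t : Fin n → ℝ)) :=
      (ContinuousLinearMap.single ℝ (fun _ : Fin n => ℝ) k).contDiff
    exact (hu.comp h2).sub contDiff_const
  subst hu'
  have hf1 : ∀ k, Differentiable ℝ (f k) := fun k => (hfc k).differentiable (by simp)
  have hf2 : ∀ k, Differentiable ℝ (deriv (f k)) := fun k =>
    ((hfc k).iterate_deriv 1).differentiable (by simp)
  have hconst := separable_core a ha f hfc hpos hAM
  have hq : ∀ k t, f k t = deriv (deriv (f k)) 0 * t ^ 2 / 2 + deriv (f k) 0 * t + f k 0 :=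
    fun k t => eq_quadratic_of_deriv2_const (f k) (hf1 k) (hf2 k) _ (hconst k) t
  refine ⟨Matrix.diagonal (fun k => deriv (deriv (f k)) 0), fun k => deriv (f k) 0,
    ∑ k, f k 0, ?_, ?_⟩
  · have := hpos (fun _ => 0)
    rwa [hessian_sum f hf1 hf2] at this
  · intro x
    simp only [Matrix.mulVec_diagonal, dotProduct, Finset.mul_sum]
    rw [← Finset.sum_add_distrib, ← Finset.sum_add_distrib]
    refine Finset.sum_congr rfl (fun k _ => ?_)
    rw [hq k (x k)]; ring

end Vale.Agent.Lib.P252
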